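import Vale.Agent.P064.Graph

namespace Vale.Agent.Results.P064.SecondKK

open Vale.Agent.P064

/-- The second Kahn-Kalai conjecture: `p_c(n,H) ≤ C p_E(n,H) log n` with a universal `C`. -/
theorem result : ∃ C : ℝ, ∀ (n : ℕ), 2 ≤ n → ∀ (V : Type) [Fintype V] (H : SimpleGraph V),
    Fintype.card V ≤ n → H.edgeSet.Nonempty →
    ∃ pc pE : ℝ,
      IsLeast {p : ℝ | p ∈ Set.Icc (0 : ℝ) 1 ∧ 1 / 2 ≤ containProb n H p} pc ∧
      IsLeast {p : ℝ | p ∈ Set.Icc (0 : ℝ) 1 ∧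
        ∀ F : H.Subgraph, 1 / 2 ≤ expCount n F.coe p} pE ∧
      pc ≤ C * pE * Real.log n := by
  refine ⟨7 * 2 ^ 82, fun n hn V _ H hV hH => ?_⟩
  obtain ⟨ι⟩ : Nonempty (V ↪ Fin n) :=
    Function.Embedding.nonempty_of_card_le (by rwa [Fintype.card_fin])
  obtain ⟨pc, hpc⟩ := exists_pc H ι
  obtain ⟨pE, hpE⟩ := exists_pE H ι
  exact ⟨pc, pE, hpc, hpE, main_bound hn H ι hH pE hpE.1.1.1 hpE.1.1.2 hpE.1.2 pc hpc⟩

end Vale.Agent.Results.P064.SecondKK
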